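import Mathlib

namespace Vale.Agent.Results.P062.StripFive

/-- The hexomino Snaky. -/
def snaky : Finset (ℤ × ℤ) := {(0, 0), (1, 0), (2, 0), (3, 0), (3, 1), (4, 1)}

/-- One of the eight signed coordinate permutations (`a, b` are signs, `sw` swaps the coordinates)
followed by the translation by `t`. -/
def place (t : ℤ × ℤ) (a b : ℤ) (sw : Bool) (p : ℤ × ℤ) : ℤ × ℤ :=
  if sw then (t.1 + a * p.2, t.2 + b * p.1) else (t.1 + a * p.1, t.2 + b * p.2)

/-- `C` is an allowed copy of Snaky: a translate of its image under a signed permutation matrix. -/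
def IsCopy (C : Finset (ℤ × ℤ)) : Prop :=
  ∃ (t : ℤ × ℤ) (a b : ℤ) (sw : Bool), (a = 1 ∨ a = -1) ∧ (b = 1 ∨ b = -1) ∧
    C = snaky.image (place t a b sw)

/-- `MakerWins Bd M B`: in the achievement game on the board `Bd`, with Maker owning `M`, Breaker
owning `B` and Maker to move, Maker can force a win after finitely many turns.  Maker claims a free
cell `c` of the board; either this completes an allowed copy lying inside the board (`win`), or
Breaker still has a legal move and Maker wins after every legal answer `d` of Breaker (`step`). -/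
inductive MakerWins (Bd : Set (ℤ × ℤ)) : Finset (ℤ × ℤ) → Finset (ℤ × ℤ) → Prop
  | win (M B : Finset (ℤ × ℤ)) (c : ℤ × ℤ) (hc : c ∈ Bd) (hM : c ∉ M) (hB : c ∉ B)
      (h : ∃ C : Finset (ℤ × ℤ), IsCopy C ∧ (∀ p ∈ C, p ∈ Bd) ∧ C ⊆ insert c M) :
      MakerWins Bd M B
  | step (M B : Finset (ℤ × ℤ)) (c : ℤ × ℤ) (hc : c ∈ Bd) (hM : c ∉ M) (hB : c ∉ B)
      (hex : ∃ d ∈ Bd, d ∉ insert c M ∧ d ∉ B)
      (h : ∀ d ∈ Bd, d ∉ insert c M → d ∉ B → MakerWins Bd (insert c M) (insert d B)) :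
      MakerWins Bd M B

/-- Offsets of the 6-periodic pairing of the strip of height five. -/
def off (x y : ℤ) : ℤ × ℤ :=
  if y = 0 then (if x % 3 = 0 then (2, 0) else if x % 3 = 1 then (0, 1) else (-2, 0))
  else if y = 4 then (if x % 3 = 0 then (2, 0) else if x % 3 = 1 then (0, -1) else (-2, 0))
  else if y = 1 then (if x % 3 = 0 then (-1, 0) else if x % 3 = 1 then (0, -1) else (1, 0))
  else if y = 3 then (if x % 3 = 0 then (-1, 0) else if x % 3 = 1 then (0, 1) else (1, 0))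
  else (if x % 2 = 0 then (1, 0) else (-1, 0))

def partner (c : ℤ × ℤ) : ℤ × ℤ := (c.1 + (off c.1 c.2).1, c.2 + (off c.1 c.2).2)

def snakyL : List (ℤ × ℤ) := [(0, 0), (1, 0), (2, 0), (3, 0), (3, 1), (4, 1)]

set_option maxRecDepth 100000 in
theorem cover0 : ∀ r ∈ List.range 6, ∀ k ∈ List.range 5, ∀ a ∈ [(1 : ℤ), -1], ∀ b ∈ [(1 : ℤ), -1],
    ∀ sw ∈ [true, false],
    (∀ p ∈ snakyL.map (place ((r : ℤ), (k : ℤ)) a b sw), 0 ≤ p.2 ∧ p.2 ≤ 4) →
    ∃ c ∈ snakyL.map (place ((r : ℤ), (k : ℤ)) a b sw),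
      partner c ∈ snakyL.map (place ((r : ℤ), (k : ℤ)) a b sw) ∧ partner c ≠ c := by
  decide +kernel

set_option maxRecDepth 100000 in
theorem invol0 : ∀ r ∈ List.range 6, ∀ k ∈ List.range 5,
    partner (partner ((r : ℤ), (k : ℤ))) = ((r : ℤ), (k : ℤ)) := by
  decide +kernel

theorem off_shift (x y q : ℤ) : off (x + 6 * q) y = off x y := by
  have h3 : (x + 6 * q) % 3 = x % 3 := by omega
  have h2 : (x + 6 * q) % 2 = x % 2 := by omega
  simp only [off, h3, h2]

theorem partner_shift (x y q : ℤ) :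
    partner (x + 6 * q, y) = ((partner (x, y)).1 + 6 * q, (partner (x, y)).2) := by
  simp only [partner, off_shift]
  ext
  · simp only; ring
  · rfl

theorem place_shift (r k q a b : ℤ) (sw : Bool) (p : ℤ × ℤ) :
    place (r + 6 * q, k) a b sw p = ((place (r, k) a b sw p).1 + 6 * q, (place (r, k) a b sw p).2) := by
  cases sw <;> simp [place] <;> ring

theorem invol (c : ℤ × ℤ) (h0 : 0 ≤ c.2) (h4 : c.2 ≤ 4) : partner (partner c) = c := by
  obtain ⟨x, y⟩ := c
  simp only at h0 h4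
  obtain ⟨r, hr, hx⟩ : ∃ r : ℕ, r < 6 ∧ x = (r : ℤ) + 6 * (x / 6) :=
    ⟨(x % 6).toNat, by omega, by omega⟩
  obtain ⟨k, hk, hy⟩ : ∃ k : ℕ, k < 5 ∧ y = (k : ℤ) := ⟨y.toNat, by omega, by omega⟩
  have h := invol0 r (List.mem_range.2 hr) k (List.mem_range.2 hk)
  rw [hx, hy, partner_shift, partner_shift]
  rw [h]

theorem mem_snaky_iff (p : ℤ × ℤ) : p ∈ snaky ↔ p ∈ snakyL := by
  simp [snaky, snakyL]

theorem cover (C : Finset (ℤ × ℤ)) (hC : IsCopy C) (hs : ∀ p ∈ C, 0 ≤ p.2 ∧ p.2 ≤ 4) :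
    ∃ c ∈ C, partner c ∈ C ∧ partner c ≠ c := by
  obtain ⟨⟨x, y⟩, a, b, sw, ha, hb, rfl⟩ := hC
  have hy : 0 ≤ y ∧ y ≤ 4 := by
    have := hs (place (x, y) a b sw (0, 0))
      (Finset.mem_image_of_mem _ (by simp [snaky]))
    cases sw <;> simpa [place] using this
  obtain ⟨r, hr, hx⟩ : ∃ r : ℕ, r < 6 ∧ x = (r : ℤ) + 6 * (x / 6) :=
    ⟨(x % 6).toNat, by omega, by omega⟩
  obtain ⟨k, hk, hyk⟩ : ∃ k : ℕ, k < 5 ∧ y = (k : ℤ) := ⟨y.toNat, by omega, by omega⟩
  set q := x / 6 with hq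
  have hmem : ∀ z : ℤ × ℤ, z ∈ snakyL.map (place ((r : ℤ), (k : ℤ)) a b sw) →
      (z.1 + 6 * q, z.2) ∈ snaky.image (place (x, y) a b sw) := by
    intro z hz
    obtain ⟨p, hp, rfl⟩ := List.mem_map.1 hz
    refine Finset.mem_image.2 ⟨p, (mem_snaky_iff p).2 hp, ?_⟩
    rw [hx, hyk, place_shift]
  have h := cover0 r (List.mem_range.2 hr) k (List.mem_range.2 hk) a (by
    rcases ha with rfl | rfl <;> simp) b (by rcases hb with rfl | rfl <;> simp) sw (by
    cases sw <;> simp) (by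
      intro p hp
      exact hs (p.1 + 6 * q, p.2) (hmem p hp))
  obtain ⟨c, hc, hpc, hne⟩ := h
  refine ⟨(c.1 + 6 * q, c.2), hmem c hc, ?_, ?_⟩
  · rw [partner_shift]
    exact hmem _ hpc
  · rw [partner_shift]
    intro he
    apply hne
    have h1 := congrArg Prod.fst he
    have h2 := congrArg Prod.snd he
    simp only at h1 h2
    ext
    · simpa using h1
    · exact h2

/-- The invariant kept by the pairing strategy at Maker's turns. -/
def Inv (Bd : Set (ℤ × ℤ)) (M B : Finset (ℤ × ℤ)) : Prop :=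
  (∀ a ∈ M, a ∉ B) ∧ ∀ a ∈ M, partner a ∈ Bd → partner a ≠ a → partner a ∈ B

theorem no_win (Bd : Set (ℤ × ℤ)) (hBd : ∀ p ∈ Bd, 0 ≤ p.2 ∧ p.2 ≤ 4)
    (M B : Finset (ℤ × ℤ)) (h : MakerWins Bd M B) : ¬ Inv Bd M B := by
  induction h with
  | win M B c hc hM hB h =>
    rintro ⟨hdis, hpair⟩
    obtain ⟨C, hC, hCB, hCM⟩ := h
    obtain ⟨a, haC, hpC, hne⟩ := cover C hC (fun p hp => hBd p (hCB p hp))
    have ha := Finset.mem_insert.1 (hCM haC)
    have hp := Finset.mem_insert.1 (hCM hpC)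
    have hinv : partner (partner a) = a := invol a (hBd a (hCB a haC)).1 (hBd a (hCB a haC)).2
    rcases ha with rfl | haM
    · rcases hp with hp | hpM
      · exact hne hp
      · have := hpair _ hpM (by rw [hinv]; exact hc) (by rw [hinv]; exact fun h => hne h.symm)
        rw [hinv] at this
        exact hB this
    · have hpB := hpair a haM (hCB _ hpC) hne
      rcases hp with hp | hpM
      · exact hB (hp ▸ hpB)
      · exact hdis _ hpM hpB
  | step M B c hc hM hB hex h ih =>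
    rintro ⟨hdis, hpair⟩
    have hinv : partner (partner c) = c := invol c (hBd c hc).1 (hBd c hc).2
    have key : ∀ d ∈ Bd, d ∉ insert c M → d ∉ B →
        (partner c ∈ Bd → partner c ≠ c → partner c ∈ insert d B) → False := by
      intro d hd hdM hdB hpc
      apply ih d hd hdM hdB
      constructor
      · intro a ha
        rcases Finset.mem_insert.1 ha with rfl | haM
        · intro h'
          rcases Finset.mem_insert.1 h' with rfl | h'
          · exact hdM (Finset.mem_insert_self _ _)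
          · exact hB h'
        · intro h'
          rcases Finset.mem_insert.1 h' with rfl | h'
          · exact hdM (Finset.mem_insert_of_mem haM)
          · exact hdis a haM h'
      · intro a ha h1 h2
        rcases Finset.mem_insert.1 ha with rfl | haM
        · exact hpc h1 h2
        · exact Finset.mem_insert_of_mem (hpair a haM h1 h2)
    by_cases hcase : partner c ∈ Bd ∧ partner c ≠ c ∧ partner c ∉ B
    · obtain ⟨h1, h2, h3⟩ := hcase
      refine key (partner c) h1 ?_ h3 (fun _ _ => Finset.mem_insert_self _ _)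
      intro hmem
      rcases Finset.mem_insert.1 hmem with h' | h'
      · exact h2 h'
      · have := hpair _ h' (by rw [hinv]; exact hc) (by rw [hinv]; exact fun h => h2 h.symm)
        rw [hinv] at this
        exact hB this
    · obtain ⟨d, hd, hdM, hdB⟩ := hex
      refine key d hd hdM hdB (fun h1 h2 => ?_)
      by_contra h3
      exact hcase ⟨h1, h2, fun h4 => h3 (Finset.mem_insert_of_mem h4)⟩

/-- Breaker wins the Snaky achievement game (Maker moves first, no handicap) on the infinite strip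
`ℤ × {0,1,2,3,4}`, and more generally on every board contained in it.  The last conjunct is a sanity
check of the game predicate: with five cells of a copy already owned, Maker does win on the strip. -/
theorem result :
    (∀ Bd : Set (ℤ × ℤ), (∀ p ∈ Bd, 0 ≤ p.2 ∧ p.2 ≤ 4) → ¬ MakerWins Bd ∅ ∅) ∧
    ¬ MakerWins {p : ℤ × ℤ | 0 ≤ p.2 ∧ p.2 ≤ 4} ∅ ∅ ∧
    MakerWins {p : ℤ × ℤ | 0 ≤ p.2 ∧ p.2 ≤ 4} {(0, 0), (1, 0), (2, 0), (3, 0), (3, 1)} ∅ := by
  have h : ∀ Bd : Set (ℤ × ℤ), (∀ p ∈ Bd, 0 ≤ p.2 ∧ p.2 ≤ 4) → ¬ MakerWins Bd ∅ ∅ := by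
    intro Bd hBd hw
    exact no_win Bd hBd ∅ ∅ hw ⟨by simp, by simp⟩
  refine ⟨h, h _ (fun p hp => hp), ?_⟩
  refine MakerWins.win _ _ (4, 1) (by simp) (by decide) (by simp) ⟨snaky, ?_, ?_, ?_⟩
  · exact ⟨(0, 0), 1, 1, false, Or.inl rfl, Or.inl rfl, by decide⟩
  · decide
  · decide

end Vale.Agent.Results.P062.StripFive
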